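import Vale.Agent.P254.Defs

namespace Vale.Agent.P254

open MeasureTheory

variable {n : ℕ}

/-- the affine map `x ↦ A x + b` -/
def aff (A : Matrix (Fin n) (Fin n) ℝ) (b : Fin n → ℝ) (x : Fin n → ℝ) : Fin n → ℝ :=
  A.mulVec x + b

theorem aff_apply (A : Matrix (Fin n) (Fin n) ℝ) (b x : Fin n → ℝ) (i : Fin n) :
    aff A b x i = ∑ a, A i a * x a + b i := by
  simp [aff, Matrix.mulVec, dotProduct]

theorem aff_continuous (A : Matrix (Fin n) (Fin n) ℝ) (b : Fin n → ℝ) : Continuous (aff A b) := by
  unfold aff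
  exact (Continuous.matrix_mulVec continuous_const continuous_id).add continuous_const

theorem aff_injective {A : Matrix (Fin n) (Fin n) ℝ} (hA : A.det ≠ 0) (b : Fin n → ℝ) :
    Function.Injective (aff A b) := by
  intro x y h
  have h1 : A.mulVec x = A.mulVec y := by
    unfold aff at h
    exact add_right_cancel h
  have hu : IsUnit A := (Matrix.isUnit_iff_isUnit_det A).2 (isUnit_iff_ne_zero.2 hA)
  exact (Matrix.mulVec_injective_iff_isUnit.2 hu) h1

theorem aff_hasFDerivAt (A : Matrix (Fin n) (Fin n) ℝ) (b x : Fin n → ℝ) :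
    HasFDerivAt (aff A b) (LinearMap.toContinuousLinearMap (Matrix.toLin' A)) x := by
  have h : aff A b = fun y => (LinearMap.toContinuousLinearMap (Matrix.toLin' A)) y + b := by
    funext y
    simp [aff]
  rw [h]
  exact (ContinuousLinearMap.hasFDerivAt _).add_const b

theorem integral_aff_image {A : Matrix (Fin n) (Fin n) ℝ} (hA : A.det ≠ 0) (b : Fin n → ℝ)
    {K : Set (Fin n → ℝ)} (hK : MeasurableSet K) (f : (Fin n → ℝ) → ℝ) :
    ∫ y in aff A b '' K, f y = |A.det| * ∫ x in K, f (aff A b x) := by
  have := integral_image_eq_integral_abs_det_fderiv_smul (μ := volume) (s := K) (f := aff A b)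
    (f' := fun _ => LinearMap.toContinuousLinearMap (Matrix.toLin' A)) hK
    (fun x _ => (aff_hasFDerivAt A b x).hasFDerivWithinAt) ((aff_injective hA b).injOn) f
  rw [this]
  have hdet : (LinearMap.toContinuousLinearMap (Matrix.toLin' A)).det = A.det := by
    simp [ContinuousLinearMap.det]
  simp only [hdet, smul_eq_mul]
  rw [integral_const_mul]

theorem volume_aff_image (A : Matrix (Fin n) (Fin n) ℝ) (b : Fin n → ℝ) (K : Set (Fin n → ℝ)) :
    volume (aff A b '' K) = ENNReal.ofReal |A.det| * volume K := by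
  have h1 : aff A b '' K = (fun y => y + b) '' ((Matrix.toLin' A) '' K) := by
    rw [Set.image_image]
    rfl
  rw [h1, Set.image_add_right, measure_preimage_add_right, Measure.addHaar_image_linearMap,
    LinearMap.det_toLin']

theorem vol_aff_image (A : Matrix (Fin n) (Fin n) ℝ) (b : Fin n → ℝ) (K : Set (Fin n → ℝ)) :
    vol (aff A b '' K) = |A.det| * vol K := by
  unfold vol
  rw [volume_aff_image, ENNReal.toReal_mul, ENNReal.toReal_ofReal (abs_nonneg _)]


theorem intOn {K : Set (Fin n → ℝ)} (hK : IsCompact K) {f : (Fin n → ℝ) → ℝ}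
    (hf : Continuous f) : IntegrableOn f K volume :=
  hf.continuousOn.integrableOn_compact hK

theorem integral_one_eq_vol (K : Set (Fin n → ℝ)) (c : ℝ) : ∫ _x in K, c = vol K * c := by
  rw [setIntegral_const]
  simp [vol, Measure.real]

theorem centroid_aff_image {A : Matrix (Fin n) (Fin n) ℝ} (hA : A.det ≠ 0) (b : Fin n → ℝ)
    {K : Set (Fin n → ℝ)} (hK : IsCompact K) (hv : vol K ≠ 0) :
    centroid (aff A b '' K) = aff A b (centroid K) := by
  funext i
  unfold centroid
  rw [vol_aff_image, integral_aff_image hA b hK.measurableSet, aff_apply]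
  simp_rw [aff_apply]
  rw [integral_add, integral_finsetSum, integral_one_eq_vol]
  · simp_rw [integral_const_mul]
    have h1 : |A.det| ≠ 0 := abs_ne_zero.2 hA
    have h2 : ∑ a, A i a * ((vol K)⁻¹ * ∫ (x : Fin n → ℝ) in K, x a)
        = (vol K)⁻¹ * ∑ a, A i a * ∫ (x : Fin n → ℝ) in K, x a := by
      rw [Finset.mul_sum]
      exact Finset.sum_congr rfl (fun a _ => by ring)
    rw [h2]
    field_simp
  · intro a _
    exact intOn hK (by fun_prop)
  · exact intOn hK (by fun_prop)
  · exact intOn hK (by fun_prop)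

theorem covMatrix_aff_image {A : Matrix (Fin n) (Fin n) ℝ} (hA : A.det ≠ 0) (b : Fin n → ℝ)
    {K : Set (Fin n → ℝ)} (hK : IsCompact K) (hv : vol K ≠ 0) :
    covMatrix (aff A b '' K) = A * covMatrix K * A.transpose := by
  ext i j
  have h1 : |A.det| ≠ 0 := abs_ne_zero.2 hA
  unfold covMatrix
  rw [Matrix.of_apply, centroid_aff_image hA b hK hv, vol_aff_image,
    integral_aff_image hA b hK.measurableSet]
  have hpt : ∀ x : Fin n → ℝ, (aff A b x i - aff A b (centroid K) i) *
      (aff A b x j - aff A b (centroid K) j) =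
      ∑ a, ∑ c, A i a * A j c * ((x a - centroid K a) * (x c - centroid K c)) := by
    intro x
    have e : ∀ k, aff A b x k - aff A b (centroid K) k = ∑ a, A k a * (x a - centroid K a) := by
      intro k
      rw [aff_apply, aff_apply, add_sub_add_right_eq_sub, ← Finset.sum_sub_distrib]
      exact Finset.sum_congr rfl (fun a _ => by ring)
    rw [e i, e j, Finset.sum_mul_sum]
    exact Finset.sum_congr rfl (fun a _ => Finset.sum_congr rfl (fun c _ => by ring))
  simp_rw [hpt]
  rw [integral_finsetSum]
  · have h3 : ∀ a, ∫ x in K, ∑ c, A i a * A j c * ((x a - centroid K a) * (x c - centroid K c))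
        = ∑ c, A i a * A j c * ∫ x in K, ((x a - centroid K a) * (x c - centroid K c)) := by
      intro a
      rw [integral_finsetSum]
      · simp_rw [integral_const_mul]
      · intro c _
        exact intOn hK (by fun_prop)
    simp_rw [h3]
    simp only [Matrix.mul_apply, Matrix.transpose_apply, Matrix.of_apply]
    rw [Finset.sum_comm]
    simp_rw [Finset.sum_mul, Finset.mul_sum]
    refine Finset.sum_congr rfl (fun c _ => Finset.sum_congr rfl (fun a _ => ?_))
    field_simp
  · intro a _
    exact intOn hK (by fun_prop)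

/-- `det Σ_K / |K|^2` -/
noncomputable def isoF (K : Set (Fin n → ℝ)) : ℝ := (covMatrix K).det / (vol K) ^ 2

theorem isoF_aff_image {A : Matrix (Fin n) (Fin n) ℝ} (hA : A.det ≠ 0) (b : Fin n → ℝ)
    {K : Set (Fin n → ℝ)} (hK : IsCompact K) (hv : vol K ≠ 0) :
    isoF (aff A b '' K) = isoF K := by
  unfold isoF
  rw [covMatrix_aff_image hA b hK hv, vol_aff_image, Matrix.det_mul, Matrix.det_mul,
    Matrix.det_transpose, mul_pow, sq_abs]
  field_simp

end Vale.Agent.P254
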