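import Vale.Agent.P254.Affine

namespace Vale.Agent.P254

open MeasureTheory

variable {n : ℕ}

/-- barycentric coordinates of `x` with respect to the standard simplex `0, e_1, ..., e_n` -/
def bary (x : Fin n → ℝ) : Fin (n + 1) → ℝ := Fin.cons (1 - ∑ k, x k) x

/-- vertices of the standard simplex -/
def vtx : Fin (n + 1) → (Fin n → ℝ) := Fin.cons 0 (fun k => Pi.single k 1)

theorem bary_zero (x : Fin n → ℝ) : bary x 0 = 1 - ∑ k, x k := rfl

theorem bary_succ (x : Fin n → ℝ) (k : Fin n) : bary x k.succ = x k := rfl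

theorem vtx_zero : (vtx 0 : Fin n → ℝ) = 0 := rfl

theorem vtx_succ (k : Fin n) : (vtx k.succ : Fin n → ℝ) = Pi.single k 1 := rfl

theorem bary_sum (x : Fin n → ℝ) : ∑ i, bary x i = 1 := by
  rw [Fin.sum_univ_succ]
  simp [bary_zero, bary_succ]

theorem bary_injective {x y : Fin n → ℝ} (h : bary x = bary y) : x = y := by
  funext k
  have := congrFun h k.succ
  simpa [bary_succ] using this

theorem bary_continuous (i : Fin (n + 1)) : Continuous (fun x : Fin n → ℝ => bary x i) := by
  refine Fin.cases ?_ (fun k => ?_) i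
  · simp only [bary_zero]
    fun_prop
  · simp only [bary_succ]
    fun_prop

/-- `bary` is affine -/
theorem bary_comb {ι : Type*} (s : Finset ι) (w : ι → ℝ) (q : ι → (Fin n → ℝ))
    (hw : ∑ j ∈ s, w j = 1) (i : Fin (n + 1)) :
    bary (∑ j ∈ s, w j • q j) i = ∑ j ∈ s, w j * bary (q j) i := by
  refine Fin.cases ?_ (fun k => ?_) i
  · simp only [bary_zero, mul_sub, mul_one, Finset.sum_sub_distrib, hw, Finset.sum_apply,
      Pi.smul_apply, smul_eq_mul]
    rw [Finset.sum_comm]
    simp_rw [Finset.mul_sum]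
  · simp [bary_succ, Finset.sum_apply]

theorem bary_vtx (i j : Fin (n + 1)) : bary (vtx j : Fin n → ℝ) i = if i = j then 1 else 0 := by
  refine Fin.cases ?_ (fun k => ?_) i <;> refine Fin.cases ?_ (fun l => ?_) j
  · simp [bary_zero, vtx_zero]
  · simp [bary_zero, vtx_succ, (Fin.succ_ne_zero _).symm]
  · simp [bary_succ, vtx_zero, Fin.succ_ne_zero]
  · simp [bary_succ, vtx_succ, Pi.single_apply]

/-- the affine map sending the standard vertices to `q` -/
def phi (q : Fin (n + 1) → (Fin n → ℝ)) (x : Fin n → ℝ) : Fin n → ℝ := ∑ i, bary x i • q i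

theorem bary_phi (q : Fin (n + 1) → (Fin n → ℝ)) (x : Fin n → ℝ) (i : Fin (n + 1)) :
    bary (phi q x) i = ∑ j, bary x j * bary (q j) i :=
  bary_comb Finset.univ (bary x) q (bary_sum x) i

theorem phi_vtx_self (x : Fin n → ℝ) : phi vtx x = x := by
  apply bary_injective
  funext i
  rw [bary_phi]
  simp [bary_vtx]

theorem phi_vtx (q : Fin (n + 1) → (Fin n → ℝ)) (j : Fin (n + 1)) : phi q (vtx j) = q j := by
  unfold phi
  simp [bary_vtx]

/-- linear part of `phi q` -/
def linPart (q : Fin (n + 1) → (Fin n → ℝ)) : Matrix (Fin n) (Fin n) ℝ :=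
  Matrix.of fun a k => q k.succ a - q 0 a

theorem phi_eq_aff (q : Fin (n + 1) → (Fin n → ℝ)) : phi q = aff (linPart q) (q 0) := by
  funext x a
  rw [aff_apply]
  unfold phi
  rw [Fin.sum_univ_succ]
  simp only [bary_zero, bary_succ, linPart, Matrix.of_apply, Pi.add_apply, Pi.smul_apply,
    Finset.sum_apply, smul_eq_mul]
  have h : ∑ k, (q k.succ a - q 0 a) * x k = ∑ k, x k * q k.succ a - (∑ k, x k) * q 0 a := by
    rw [Finset.sum_mul, ← Finset.sum_sub_distrib]
    exact Finset.sum_congr rfl (fun k _ => by ring)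
  rw [h]
  ring

/-- the standard simplex -/
def stdT (n : ℕ) : Set (Fin n → ℝ) := {x | ∀ i, 0 ≤ bary x i}

theorem vtx_mem_stdT (j : Fin (n + 1)) : (vtx j : Fin n → ℝ) ∈ stdT n := by
  intro i
  rw [bary_vtx]
  split_ifs <;> norm_num

theorem stdT_eq_convexHull : stdT n = convexHull ℝ (Set.range (vtx : Fin (n + 1) → (Fin n → ℝ))) := by
  apply Set.Subset.antisymm
  · intro x hx
    rw [← phi_vtx_self x]
    unfold phi
    exact (convex_convexHull ℝ _).sum_mem (fun i _ => hx i) (bary_sum x)
      (fun i _ => subset_convexHull ℝ _ (Set.mem_range_self i))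
  · apply convexHull_min
    · rintro _ ⟨j, rfl⟩
      exact vtx_mem_stdT j
    · intro x hx y hy a b ha hb hab i
      have := bary_comb (Finset.univ : Finset (Fin 2)) ![a, b] ![x, y] (by simp [hab]) i
      simp only [Fin.sum_univ_two, Matrix.cons_val_zero, Matrix.cons_val_one] at this
      rw [this]
      exact add_nonneg (mul_nonneg ha (hx i)) (mul_nonneg hb (hy i))

theorem stdT_isCompact : IsCompact (stdT n) := by
  rw [stdT_eq_convexHull]
  exact (Set.finite_range _).isCompact_convexHull (𝕜 := ℝ)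


theorem vol_pos_of_compact_of_open {K U : Set (Fin n → ℝ)} (hK : IsCompact K) (hU : IsOpen U)
    (hne : U.Nonempty) (hUK : U ⊆ K) : 0 < vol K := by
  unfold vol
  apply ENNReal.toReal_pos
  · exact ((hU.measure_pos volume hne).trans_le (measure_mono hUK)).ne'
  · exact hK.measure_lt_top.ne

theorem vol_stdT_pos : 0 < vol (stdT n) := by
  apply vol_pos_of_compact_of_open stdT_isCompact (U := {x | ∀ i, 0 < bary x i})
  · have : {x : Fin n → ℝ | ∀ i, 0 < bary x i} = ⋂ i, (fun x => bary x i) ⁻¹' Set.Ioi 0 := by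
      ext x
      simp
    rw [this]
    exact isOpen_iInter_of_finite (fun i => isOpen_Ioi.preimage (bary_continuous i))
  · refine ⟨fun _ => 1 / ((n : ℝ) + 1), fun i => ?_⟩
    have hn : (0 : ℝ) < (n : ℝ) + 1 := by positivity
    refine Fin.cases ?_ (fun k => ?_) i
    · rw [bary_zero]
      simp only [Finset.sum_const, Finset.card_univ, Fintype.card_fin, nsmul_eq_mul]
      have : 1 - (n : ℝ) * (1 / ((n : ℝ) + 1)) = 1 / ((n : ℝ) + 1) := by
        field_simp
        ring
      rw [this]
      positivity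
    · rw [bary_succ]
      positivity
  · intro x hx i
    exact (hx i).le

/-- `aff A b` as a bundled affine map -/
noncomputable def affA (A : Matrix (Fin n) (Fin n) ℝ) (b : Fin n → ℝ) :
    (Fin n → ℝ) →ᵃ[ℝ] (Fin n → ℝ) :=
  (Matrix.toLin' A).toAffineMap + AffineMap.const ℝ (Fin n → ℝ) b

theorem coe_affA (A : Matrix (Fin n) (Fin n) ℝ) (b : Fin n → ℝ) : ⇑(affA A b) = aff A b := by
  funext x
  simp [affA, aff]

theorem aff_image_convexHull (A : Matrix (Fin n) (Fin n) ℝ) (b : Fin n → ℝ) (s : Set (Fin n → ℝ)) :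
    aff A b '' (convexHull ℝ s) = convexHull ℝ (aff A b '' s) := by
  rw [← coe_affA]
  exact AffineMap.image_convexHull _ s

theorem phi_image_convexHull (q : Fin (n + 1) → (Fin n → ℝ)) (s : Set (Fin n → ℝ)) :
    phi q '' (convexHull ℝ s) = convexHull ℝ (phi q '' s) := by
  rw [phi_eq_aff]
  exact aff_image_convexHull _ _ s

theorem phi_image_range_vtx (q : Fin (n + 1) → (Fin n → ℝ)) :
    phi q '' (Set.range vtx) = Set.range q := by
  rw [← Set.range_comp]
  congr 1
  funext j
  exact phi_vtx q j

theorem phi_image_stdT (q : Fin (n + 1) → (Fin n → ℝ)) :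
    phi q '' stdT n = convexHull ℝ (Set.range q) := by
  rw [stdT_eq_convexHull, phi_image_convexHull, phi_image_range_vtx]

/-- second moments of barycentric coordinates on the standard simplex -/
noncomputable def mm (n : ℕ) (i j : Fin (n + 1)) : ℝ := ∫ x in stdT n, bary x i * bary x j

theorem integral_phi_image {q : Fin (n + 1) → (Fin n → ℝ)} (hq : (linPart q).det ≠ 0)
    (a c : Fin (n + 1)) :
    ∫ y in phi q '' stdT n, bary y a * bary y c =
      |(linPart q).det| * ∑ j, ∑ k, bary (q j) a * bary (q k) c * mm n j k := by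
  rw [phi_eq_aff, integral_aff_image hq _ stdT_isCompact.measurableSet, ← phi_eq_aff]
  congr 1
  have hpt : ∀ x : Fin n → ℝ, bary (phi q x) a * bary (phi q x) c =
      ∑ j, ∑ k, bary (q j) a * bary (q k) c * (bary x j * bary x k) := by
    intro x
    rw [bary_phi, bary_phi, Finset.sum_mul_sum]
    exact Finset.sum_congr rfl (fun j _ => Finset.sum_congr rfl (fun k _ => by ring))
  simp_rw [hpt]
  rw [integral_finsetSum]
  · refine Finset.sum_congr rfl (fun j _ => ?_)
    rw [integral_finsetSum]
    · simp_rw [integral_const_mul]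
      rfl
    · intro k _
      exact intOn stdT_isCompact
        (continuous_const.mul ((bary_continuous j).mul (bary_continuous k)))
  · intro j _
    exact intOn stdT_isCompact (continuous_finsetSum _ (fun k _ =>
      continuous_const.mul ((bary_continuous j).mul (bary_continuous k))))

theorem vol_phi_image (q : Fin (n + 1) → (Fin n → ℝ)) :
    vol (phi q '' stdT n) = |(linPart q).det| * vol (stdT n) := by
  rw [phi_eq_aff, vol_aff_image]

end Vale.Agent.P254
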