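import Vale.Agent.P254.Moments

namespace Vale.Agent.P254

open MeasureTheory

variable {n : ℕ}

theorem integral_coord_eq {K : Set (Fin n → ℝ)} (hv : vol K ≠ 0) (k : Fin n) :
    ∫ x in K, x k = vol K * centroid K k := by
  unfold centroid
  field_simp

theorem cov_eq_raw {K : Set (Fin n → ℝ)} (hK : IsCompact K) (hv : vol K ≠ 0) (k l : Fin n) :
    covMatrix K k l = (vol K)⁻¹ * (∫ x in K, x k * x l) - centroid K k * centroid K l := by
  unfold covMatrix
  rw [Matrix.of_apply]
  have e : ∀ x : Fin n → ℝ, (x k - centroid K k) * (x l - centroid K l) =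
      x k * x l - centroid K l * x k - centroid K k * x l + centroid K k * centroid K l := by
    intro x
    ring
  simp_rw [e]
  rw [integral_add, integral_sub, integral_sub, integral_const_mul, integral_const_mul,
    integral_one_eq_vol, integral_coord_eq hv, integral_coord_eq hv]
  · field_simp
    ring
  · exact intOn hK (by fun_prop)
  · exact intOn hK (by fun_prop)
  · exact intOn hK (by fun_prop)
  · exact intOn hK (by fun_prop)
  · exact intOn hK (by fun_prop)
  · exact intOn hK (by fun_prop)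

theorem integral_bary_eq_sum {K : Set (Fin n → ℝ)} (hK : IsCompact K) (a : Fin (n + 1)) :
    ∫ y in K, bary y a = ∑ c, ∫ y in K, bary y a * bary y c := by
  rw [← integral_finsetSum]
  · simp_rw [← Finset.mul_sum, bary_sum, mul_one]
  · intro c _
    exact intOn hK ((bary_continuous a).mul (bary_continuous c))

theorem vol_eq_sum_bary {K : Set (Fin n → ℝ)} (hK : IsCompact K) :
    vol K = ∑ a, ∫ y in K, bary y a := by
  rw [← integral_finsetSum]
  · simp_rw [bary_sum]
    rw [integral_one_eq_vol, mul_one]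
  · intro a _
    exact intOn hK (bary_continuous a)

theorem sum_lin (z : Fin n → ℝ) (a : Fin (n + 1)) (A B C D : ℝ) :
    ∑ c, (A + B * bary z c + C * (if a = c then 1 else 0) + D * pos z c)
      = A * ((n : ℝ) + 1) + B + C + D * Zs z := by
  simp only [Finset.sum_add_distrib, ← Finset.mul_sum, bary_sum, Finset.sum_const,
    Finset.card_univ, Fintype.card_fin, nsmul_eq_mul, Finset.sum_ite_eq, Finset.mem_univ, if_true]
  unfold Zs
  push_cast
  ring

theorem integral_K0_bary_one (m : ℕ) (z : Fin (m + 1) → ℝ) (a : Fin (m + 2)) :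
    ∫ y in K0 z, bary y a =
      vol (stdT (m + 1)) / (((m + 1 : ℕ) : ℝ) + 1) * (Zs z * (1 + bary z a) - pos z a) := by
  rw [integral_bary_eq_sum (K0_isCompact z)]
  simp_rw [integral_K0_final]
  rw [← Finset.mul_sum]
  have h : ∀ c, (Zs z * ((1 + bary z a) * (1 + bary z c) + (if a = c then 1 else 0)
      + bary z a * bary z c) - (1 + bary z c) * pos z a - (1 + bary z a) * pos z c)
      = (Zs z * (1 + bary z a) - pos z a) + (Zs z * (1 + bary z a) + Zs z * bary z a - pos z a) * bary z c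
        + Zs z * (if a = c then 1 else 0) + (-(1 + bary z a)) * pos z c := by
    intro c
    ring
  simp_rw [h]
  rw [sum_lin]
  have h1 : (((m + 1 : ℕ) : ℝ) + 1) ≠ 0 := by positivity
  have h2 : (((m + 1 : ℕ) : ℝ) + 2) ≠ 0 := by positivity
  field_simp
  ring

theorem vol_K0 (m : ℕ) (z : Fin (m + 1) → ℝ) : vol (K0 z) = Zs z * vol (stdT (m + 1)) := by
  rw [vol_eq_sum_bary (K0_isCompact z)]
  simp_rw [integral_K0_bary_one]
  rw [← Finset.mul_sum]
  have h : ∀ a, (Zs z * (1 + bary z a) - pos z a)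
      = Zs z + Zs z * bary z a + 0 * (if (0 : Fin (m + 2)) = a then 1 else 0) + (-1) * pos z a := by
    intro a
    ring
  simp_rw [h]
  rw [sum_lin]
  have h1 : (((m + 1 : ℕ) : ℝ) + 1) ≠ 0 := by positivity
  field_simp
  ring

theorem Zs_ge_one (z : Fin n → ℝ) : 1 ≤ Zs z := by
  rw [← bary_sum z]
  exact Finset.sum_le_sum (fun i _ => le_max_left _ _)


/-- normalised positive parts -/
noncomputable def ww (z : Fin n → ℝ) (i : Fin (n + 1)) : ℝ := pos z i / Zs z

/-- `1 + ζ - w` -/
noncomputable def yy (z : Fin n → ℝ) (i : Fin (n + 1)) : ℝ := 1 + bary z i - ww z i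

theorem centroid_K0 (m : ℕ) (z : Fin (m + 1) → ℝ) (k : Fin (m + 1)) :
    centroid (K0 z) k = yy z k.succ / (((m + 1 : ℕ) : ℝ) + 1) := by
  have hZ : Zs z ≠ 0 := (lt_of_lt_of_le one_pos (Zs_ge_one z)).ne'
  have hV : vol (stdT (m + 1)) ≠ 0 := vol_stdT_pos.ne'
  have h1 : (((m + 1 : ℕ) : ℝ) + 1) ≠ 0 := by positivity
  unfold centroid
  have e : ∫ x in K0 z, x k = ∫ x in K0 z, bary x k.succ := rfl
  rw [e, integral_K0_bary_one, vol_K0]
  unfold yy ww
  field_simp

theorem cov_K0 (m : ℕ) (z : Fin (m + 1) → ℝ) (k l : Fin (m + 1)) :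
    covMatrix (K0 z) k l = (1 / ((((m + 1 : ℕ) : ℝ) + 1) * (((m + 1 : ℕ) : ℝ) + 2))) *
      ((if k = l then 1 else 0) + bary z k.succ * bary z l.succ - ww z k.succ * ww z l.succ
        - yy z k.succ * yy z l.succ / (((m + 1 : ℕ) : ℝ) + 1)) := by
  have hZ : Zs z ≠ 0 := (lt_of_lt_of_le one_pos (Zs_ge_one z)).ne'
  have hV : vol (stdT (m + 1)) ≠ 0 := vol_stdT_pos.ne'
  have h1 : (((m + 1 : ℕ) : ℝ) + 1) ≠ 0 := by positivity
  have h2 : (((m + 1 : ℕ) : ℝ) + 2) ≠ 0 := by positivity
  have hv : vol (K0 z) ≠ 0 := by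
    rw [vol_K0]
    exact mul_ne_zero hZ hV
  rw [cov_eq_raw (K0_isCompact z) hv, centroid_K0, centroid_K0]
  have e : ∫ x in K0 z, x k * x l = ∫ x in K0 z, bary x k.succ * bary x l.succ := rfl
  rw [e, integral_K0_final, vol_K0]
  simp only [Fin.succ_inj]
  unfold yy ww
  field_simp
  ring

end Vale.Agent.P254
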