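import Vale.Agent.P254.Bary

namespace Vale.Agent.P254

open MeasureTheory

variable {n : ℕ}

theorem bary_add_smul_sub (y u w : Fin n → ℝ) (t : ℝ) (j : Fin (n + 1)) :
    bary (y + t • (u - w)) j = bary y j + t * (bary u j - bary w j) := by
  refine Fin.cases ?_ (fun k => ?_) j
  · simp only [bary_zero, Pi.add_apply, Pi.smul_apply, Pi.sub_apply, smul_eq_mul,
      Finset.sum_add_distrib, ← Finset.mul_sum, Finset.sum_sub_distrib]
    ring
  · simp [bary_succ]

/-- the standard vertices with the `i`-th one replaced by `z` -/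
def upd (z : Fin n → ℝ) (i : Fin (n + 1)) : Fin (n + 1) → (Fin n → ℝ) := Function.update vtx i z

theorem phi_upd (z : Fin n → ℝ) (i : Fin (n + 1)) (x : Fin n → ℝ) :
    phi (upd z i) x = x + bary x i • (z - vtx i) := by
  have h1 : phi (upd z i) x = phi vtx x + bary x i • (z - vtx i) := by
    unfold phi upd
    rw [← sub_eq_iff_eq_add', ← Finset.sum_sub_distrib, Finset.sum_eq_single i]
    · simp [smul_sub]
    · intro j _ hj
      simp [Function.update_of_ne hj]
    · intro h
      exact absurd (Finset.mem_univ i) h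
  rw [h1, phi_vtx_self]

theorem bary_phi_upd (z : Fin n → ℝ) (i : Fin (n + 1)) (x : Fin n → ℝ) (a : Fin (n + 1)) :
    bary (phi (upd z i) x) a = bary x a + bary x i * (bary z a - if a = i then 1 else 0) := by
  rw [phi_upd, bary_add_smul_sub, bary_vtx]

theorem bary_linear_part (u w : Fin n → ℝ) (i : Fin (n + 1)) :
    (fun k : Fin n => bary (vtx k.succ : Fin n → ℝ) i - bary (vtx 0 : Fin n → ℝ) i) ⬝ᵥ (u - w)
      = bary u i - bary w i := by
  refine Fin.cases ?_ (fun l => ?_) i
  · have hg : (fun k : Fin n => bary (vtx k.succ : Fin n → ℝ) 0 - bary (vtx 0 : Fin n → ℝ) 0)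
        = fun _ => -1 := by
      funext k
      rw [bary_vtx, bary_vtx]
      simp [(Fin.succ_ne_zero k).symm]
    rw [hg]
    simp only [dotProduct, bary_zero, Pi.sub_apply, neg_mul, one_mul, Finset.sum_neg_distrib,
      Finset.sum_sub_distrib]
    ring
  · have hg : (fun k : Fin n => bary (vtx k.succ : Fin n → ℝ) l.succ
        - bary (vtx 0 : Fin n → ℝ) l.succ) = Pi.single l 1 := by
      funext k
      rw [bary_vtx, bary_vtx]
      simp [Fin.succ_ne_zero, Pi.single_apply, eq_comm]
    rw [hg]
    simp [bary_succ]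

theorem det_linPart_upd (z : Fin n → ℝ) (i : Fin (n + 1)) :
    (linPart (upd z i)).det = bary z i := by
  have h : linPart (upd z i) = 1 + Matrix.replicateCol Unit (z - vtx i) *
      Matrix.replicateRow Unit (fun k : Fin n => bary (vtx k.succ : Fin n → ℝ) i - bary (vtx 0 : Fin n → ℝ) i) := by
    ext a k
    have e1 := congrFun (phi_upd z i (vtx k.succ)) a
    have e0 := congrFun (phi_upd z i (vtx 0)) a
    rw [phi_vtx] at e1 e0
    simp only [linPart, Matrix.of_apply, e1, e0, Matrix.add_apply, Matrix.mul_apply,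
      Matrix.replicateCol_apply, Matrix.replicateRow_apply, Finset.univ_unique,
      Finset.sum_singleton, Pi.add_apply, Pi.smul_apply, Pi.sub_apply, smul_eq_mul, vtx_zero,
      vtx_succ, Pi.zero_apply, Matrix.one_apply, Pi.single_apply]
    ring
  rw [h, Matrix.det_one_add_replicateCol_mul_replicateRow]
  rw [bary_linear_part, bary_vtx]
  simp


/-- the polytope spanned by the standard simplex and `z` -/
def K0 (z : Fin n → ℝ) : Set (Fin n → ℝ) := convexHull ℝ (insert z (Set.range vtx))

/-- the piece obtained by replacing vertex `i` by `z` -/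
def piece (z : Fin n → ℝ) (i : Fin (n + 1)) : Set (Fin n → ℝ) := phi (upd z i) '' stdT n

theorem K0_isCompact (z : Fin n → ℝ) : IsCompact (K0 z) :=
  ((Set.finite_range _).insert z).isCompact_convexHull (𝕜 := ℝ)

theorem piece_isCompact (z : Fin n → ℝ) (i : Fin (n + 1)) : IsCompact (piece z i) := by
  unfold piece
  rw [phi_eq_aff]
  exact stdT_isCompact.image (aff_continuous _ _)

theorem piece_subset_K0 (z : Fin n → ℝ) (i : Fin (n + 1)) : piece z i ⊆ K0 z := by
  unfold piece K0
  rw [phi_image_stdT]
  apply convexHull_mono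
  rintro _ ⟨j, rfl⟩
  unfold upd
  by_cases h : j = i
  · subst h
    simp
  · rw [Function.update_of_ne h]
    exact Set.mem_insert_of_mem _ (Set.mem_range_self j)

theorem stdT_subset_K0 (z : Fin n → ℝ) : stdT n ⊆ K0 z := by
  unfold K0
  rw [stdT_eq_convexHull]
  exact convexHull_mono (Set.subset_insert _ _)

theorem K0_subset_iUnion (z : Fin n → ℝ) :
    K0 z ⊆ ⋃ i, (if 0 < bary z i then piece z i else ∅) := by
  intro y hy
  unfold K0 at hy
  rw [convexHull_insert (Set.range_nonempty _), ← stdT_eq_convexHull] at hy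
  obtain ⟨z', hz', x, hx, hseg⟩ := mem_convexJoin.1 hy
  rw [Set.mem_singleton_iff] at hz'
  subst hz'
  obtain ⟨a, b, ha, hb, hab, rfl⟩ := hseg
  have hbary : ∀ j, bary (a • z' + b • x) j = a * bary z' j + b * bary x j := by
    intro j
    have := bary_comb (Finset.univ : Finset (Fin 2)) ![a, b] ![z', x] (by simp [hab]) j
    simpa [Fin.sum_univ_two] using this
  set y := a • z' + b • x with hy_def
  have hBne : (Finset.univ.filter (fun j => 0 < bary z' j)).Nonempty := by
    by_contra hne
    rw [Finset.not_nonempty_iff_eq_empty, Finset.filter_eq_empty_iff] at hne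
    have : ∑ j, bary z' j ≤ 0 := Finset.sum_nonpos (fun j _ => not_lt.1 (hne (Finset.mem_univ j)))
    rw [bary_sum] at this
    linarith
  obtain ⟨i, hiB, hmin⟩ := Finset.exists_min_image _ (fun j => bary y j / bary z' j) hBne
  have hi : 0 < bary z' i := (Finset.mem_filter.1 hiB).2
  set τ := bary y i / bary z' i with hτ
  have hτa : a ≤ τ := by
    rw [hτ, le_div_iff₀ hi, hbary]
    have := mul_nonneg hb (hx i)
    linarith
  have hτi : τ * bary z' i = bary y i := by
    rw [hτ]
    field_simp
  rw [Set.mem_iUnion]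
  refine ⟨i, ?_⟩
  rw [if_pos hi]
  have hx' : ∀ j, bary (y + (-τ) • (z' - vtx i)) j
      = bary y j - τ * (bary z' j - if j = i then 1 else 0) := by
    intro j
    rw [bary_add_smul_sub, bary_vtx]
    ring
  refine ⟨y + (-τ) • (z' - vtx i), ?_, ?_⟩
  · intro j
    rw [hx']
    by_cases hj : j = i
    · subst hj
      simp only [if_true]
      nlinarith
    · simp only [if_neg hj, sub_zero]
      by_cases hpos : 0 < bary z' j
      · have := hmin j (Finset.mem_filter.2 ⟨Finset.mem_univ j, hpos⟩)
        have h2 : τ ≤ bary y j / bary z' j := this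
        rw [le_div_iff₀ hpos] at h2
        linarith
      · have hnp : bary z' j ≤ 0 := not_lt.1 hpos
        rw [hbary]
        have h1 := mul_nonneg hb (hx j)
        have h2 : 0 ≤ (a - τ) * bary z' j := mul_nonneg_of_nonpos_of_nonpos (by linarith) hnp
        nlinarith
  · apply bary_injective
    funext c
    rw [bary_phi_upd, hx', hx']
    simp only [if_true]
    have : bary y i - τ * (bary z' i - 1) = τ := by
      rw [mul_sub, hτi]
      ring
    rw [this]
    ring

theorem K0_eq_iUnion (z : Fin n → ℝ) :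
    K0 z = ⋃ i, (if 0 < bary z i then piece z i else ∅) := by
  apply Set.Subset.antisymm (K0_subset_iUnion z)
  apply Set.iUnion_subset
  intro i
  split_ifs
  · exact piece_subset_K0 z i
  · exact Set.empty_subset _


/-- the hyperplane `α * λ_k = β * λ_i` -/
def hypPlane (α β : ℝ) (i k : Fin (n + 1)) : AffineSubspace ℝ (Fin n → ℝ) where
  carrier := {y | α * bary y k - β * bary y i = 0}
  smul_vsub_vadd_mem' := by
    intro t p1 p2 p3 h1 h2 h3
    simp only [Set.mem_ofPred_eq] at h1 h2 h3 ⊢
    have e : t • (p1 -ᵥ p2) +ᵥ p3 = p3 + t • (p1 - p2) := by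
      simp [add_comm]
    rw [e, bary_add_smul_sub, bary_add_smul_sub]
    linear_combination h3 + t * h1 - t * h2

theorem volume_hypPlane {α β : ℝ} (hβ : β ≠ 0) {i k : Fin (n + 1)} (hik : i ≠ k) :
    volume ((hypPlane α β i k : AffineSubspace ℝ (Fin n → ℝ)) : Set (Fin n → ℝ)) = 0 := by
  apply Measure.addHaar_affineSubspace
  intro htop
  have : (vtx i : Fin n → ℝ) ∈ (hypPlane α β i k : AffineSubspace ℝ (Fin n → ℝ)) := by
    rw [htop]
    exact AffineSubspace.mem_top ℝ _ _
  have h2 : α * bary (vtx i : Fin n → ℝ) k - β * bary (vtx i : Fin n → ℝ) i = 0 := this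
  rw [bary_vtx, bary_vtx, if_neg hik.symm, if_pos rfl] at h2
  apply hβ
  linarith

theorem piece_ineq (z : Fin n → ℝ) {i k : Fin (n + 1)} (hik : i ≠ k) (hi : 0 < bary z i)
    {y : Fin n → ℝ} (hy : y ∈ piece z i) : 0 ≤ bary z i * bary y k - bary z k * bary y i := by
  obtain ⟨x, hx, rfl⟩ := hy
  rw [bary_phi_upd, bary_phi_upd, if_neg hik.symm, if_pos rfl]
  have := mul_nonneg hi.le (hx k)
  nlinarith

theorem piece_aedisjoint (z : Fin n → ℝ) {i k : Fin (n + 1)} (hik : i ≠ k) (hi : 0 < bary z i)
    (hk : 0 < bary z k) : AEDisjoint volume (piece z i) (piece z k) := by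
  unfold AEDisjoint
  apply measure_mono_null _ (volume_hypPlane (α := bary z i) (β := bary z k) hk.ne' hik)
  rintro y ⟨h1, h2⟩
  have e1 := piece_ineq z hik hi h1
  have e2 := piece_ineq z hik.symm hk h2
  show bary z i * bary y k - bary z k * bary y i = 0
  linarith

theorem integral_K0 (z : Fin n → ℝ) {f : (Fin n → ℝ) → ℝ} (hf : Continuous f) :
    ∫ y in K0 z, f y = ∑ i, if 0 < bary z i then ∫ y in piece z i, f y else 0 := by
  have hint : IntegrableOn f (K0 z) volume := intOn (K0_isCompact z) hf
  rw [K0_eq_iUnion] at hint ⊢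
  rw [integral_iUnion_ae _ _ hint, tsum_fintype]
  · refine Finset.sum_congr rfl (fun i _ => ?_)
    split_ifs
    · rfl
    · simp
  · intro i
    split_ifs
    · exact (piece_isCompact z i).measurableSet.nullMeasurableSet
    · exact MeasurableSet.empty.nullMeasurableSet
  · intro i k hik
    show AEDisjoint volume (if 0 < bary z i then piece z i else ∅)
      (if 0 < bary z k then piece z k else ∅)
    split_ifs with h1 h2
    · exact piece_aedisjoint z hik h1 h2
    · simp [AEDisjoint]
    · simp [AEDisjoint]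
    · simp [AEDisjoint]

/-- the basic decomposition formula for second moments of barycentric coordinates -/
theorem integral_K0_bary (z : Fin n → ℝ) (a c : Fin (n + 1)) :
    ∫ y in K0 z, bary y a * bary y c =
      ∑ i, max (bary z i) 0 *
        ∑ j, ∑ k, bary (upd z i j) a * bary (upd z i k) c * mm n j k := by
  rw [integral_K0 z (f := fun y => bary y a * bary y c)
    ((bary_continuous a).mul (bary_continuous c))]
  refine Finset.sum_congr rfl (fun i _ => ?_)
  split_ifs with h
  · unfold piece
    rw [integral_phi_image (by rw [det_linPart_upd]; exact h.ne'), det_linPart_upd,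
      abs_of_pos h, max_eq_left h.le]
  · rw [max_eq_right (not_lt.1 h), zero_mul]

end Vale.Agent.P254
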