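import Vale.Agent.P254.Cov

namespace Vale.Agent.P254

open MeasureTheory

variable {n : ℕ}

noncomputable def Umat (z : Fin n → ℝ) : Matrix (Fin n) (Fin 3) ℝ :=
  Matrix.of fun k t => ![bary z k.succ, ww z k.succ, yy z k.succ] t

noncomputable def Wmat (N : ℝ) (z : Fin n → ℝ) : Matrix (Fin 3) (Fin n) ℝ :=
  Matrix.of fun t l => ![bary z l.succ, - ww z l.succ, - (yy z l.succ / (N + 1))] t

noncomputable def Gzz (z : Fin n → ℝ) : ℝ := ∑ i, bary z i * bary z i
noncomputable def Gzw (z : Fin n → ℝ) : ℝ := ∑ i, bary z i * ww z i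
noncomputable def Gww (z : Fin n → ℝ) : ℝ := ∑ i, ww z i * ww z i

theorem sum_succ_eq (f : Fin (n + 1) → ℝ) : ∑ k : Fin n, f k.succ = ∑ i, f i - f 0 := by
  rw [Fin.sum_univ_succ]
  ring

theorem ww_sum (z : Fin n → ℝ) : ∑ i, ww z i = 1 := by
  have hZ : Zs z ≠ 0 := (lt_of_lt_of_le one_pos (Zs_ge_one z)).ne'
  unfold ww
  rw [← Finset.sum_div]
  exact div_self hZ

theorem sum_zy (z : Fin n → ℝ) : ∑ i, bary z i * yy z i = 1 + Gzz z - Gzw z := by
  have h : ∀ i, bary z i * yy z i = bary z i + bary z i * bary z i - bary z i * ww z i := by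
    intro i
    unfold yy
    ring
  simp_rw [h]
  simp only [Finset.sum_add_distrib, Finset.sum_sub_distrib, bary_sum]
  rfl

theorem sum_wy (z : Fin n → ℝ) : ∑ i, ww z i * yy z i = 1 + Gzw z - Gww z := by
  have h : ∀ i, ww z i * yy z i = ww z i + bary z i * ww z i - ww z i * ww z i := by
    intro i
    unfold yy
    ring
  simp_rw [h]
  simp only [Finset.sum_add_distrib, Finset.sum_sub_distrib, ww_sum]
  rfl

theorem sum_yy (z : Fin n → ℝ) :
    ∑ i, yy z i * yy z i = (n : ℝ) + 1 + Gzz z + Gww z - 2 * Gzw z := by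
  have h : ∀ i, yy z i * yy z i = 1 + 2 * bary z i - 2 * ww z i + bary z i * bary z i
      + ww z i * ww z i - 2 * (bary z i * ww z i) := by
    intro i
    unfold yy
    ring
  simp_rw [h]
  simp only [Finset.sum_add_distrib, Finset.sum_sub_distrib, ← Finset.mul_sum, bary_sum, ww_sum,
    Finset.sum_const, Finset.card_univ, Fintype.card_fin, nsmul_eq_mul]
  unfold Gzz Gww Gzw
  push_cast
  ring

theorem entry_aux (c : ℝ) (f : Fin (n + 1) → ℝ) (g : Fin n → ℝ) (h : ∀ k, g k = c * f k.succ) :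
    ∑ k, g k = c * (∑ i, f i - f 0) := by
  rw [← sum_succ_eq, Finset.mul_sum]
  exact Finset.sum_congr rfl (fun k _ => h k)

theorem det_one_add_UW (z : Fin n → ℝ) :
    (1 + Umat z * Wmat (n : ℝ) z).det
      = ((1 + Gzz z) * (1 - Gww z) + Gzw z ^ 2) / ((n : ℝ) + 1) := by
  have hN : ((n : ℝ) + 1) ≠ 0 := by positivity
  rw [Matrix.det_one_add_mul_comm, Matrix.det_fin_three]
  have e00 : (1 + Wmat (n : ℝ) z * Umat z : Matrix (Fin 3) (Fin 3) ℝ) 0 0
      = 1 + 1 * (Gzz z - bary z 0 * bary z 0) := by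
    rw [Matrix.add_apply, Matrix.mul_apply,
      entry_aux 1 (fun i => bary z i * bary z i) _ (fun k => by simp [Wmat, Umat])]
    simp [Gzz]
  have e01 : (1 + Wmat (n : ℝ) z * Umat z : Matrix (Fin 3) (Fin 3) ℝ) 0 1
      = 0 + 1 * (Gzw z - bary z 0 * ww z 0) := by
    rw [Matrix.add_apply, Matrix.mul_apply,
      entry_aux 1 (fun i => bary z i * ww z i) _ (fun k => by simp [Wmat, Umat])]
    simp [Gzw]
  have e02 : (1 + Wmat (n : ℝ) z * Umat z : Matrix (Fin 3) (Fin 3) ℝ) 0 2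
      = 0 + 1 * ((1 + Gzz z - Gzw z) - bary z 0 * yy z 0) := by
    rw [Matrix.add_apply, Matrix.mul_apply,
      entry_aux 1 (fun i => bary z i * yy z i) _ (fun k => by simp [Wmat, Umat]), sum_zy]
    simp
  have e10 : (1 + Wmat (n : ℝ) z * Umat z : Matrix (Fin 3) (Fin 3) ℝ) 1 0
      = 0 + (-1) * (Gzw z - bary z 0 * ww z 0) := by
    rw [Matrix.add_apply, Matrix.mul_apply,
      entry_aux (-1) (fun i => bary z i * ww z i) _ (fun k => by simp [Wmat, Umat, mul_comm])]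
    simp [Gzw]
  have e11 : (1 + Wmat (n : ℝ) z * Umat z : Matrix (Fin 3) (Fin 3) ℝ) 1 1
      = 1 + (-1) * (Gww z - ww z 0 * ww z 0) := by
    rw [Matrix.add_apply, Matrix.mul_apply,
      entry_aux (-1) (fun i => ww z i * ww z i) _ (fun k => by simp [Wmat, Umat])]
    simp [Gww]
  have e12 : (1 + Wmat (n : ℝ) z * Umat z : Matrix (Fin 3) (Fin 3) ℝ) 1 2
      = 0 + (-1) * ((1 + Gzw z - Gww z) - ww z 0 * yy z 0) := by
    rw [Matrix.add_apply, Matrix.mul_apply,
      entry_aux (-1) (fun i => ww z i * yy z i) _ (fun k => by simp [Wmat, Umat]), sum_wy]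
    simp
  have e20 : (1 + Wmat (n : ℝ) z * Umat z : Matrix (Fin 3) (Fin 3) ℝ) 2 0
      = 0 + (-(1 / ((n : ℝ) + 1))) * ((1 + Gzz z - Gzw z) - bary z 0 * yy z 0) := by
    rw [Matrix.add_apply, Matrix.mul_apply,
      entry_aux (-(1 / ((n : ℝ) + 1))) (fun i => bary z i * yy z i) _
        (fun k => by simp [Wmat, Umat]; ring), sum_zy]
    simp
  have e21 : (1 + Wmat (n : ℝ) z * Umat z : Matrix (Fin 3) (Fin 3) ℝ) 2 1
      = 0 + (-(1 / ((n : ℝ) + 1))) * ((1 + Gzw z - Gww z) - ww z 0 * yy z 0) := by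
    rw [Matrix.add_apply, Matrix.mul_apply,
      entry_aux (-(1 / ((n : ℝ) + 1))) (fun i => ww z i * yy z i) _
        (fun k => by simp [Wmat, Umat]; ring), sum_wy]
    simp
  have e22 : (1 + Wmat (n : ℝ) z * Umat z : Matrix (Fin 3) (Fin 3) ℝ) 2 2
      = 1 + (-(1 / ((n : ℝ) + 1))) * (((n : ℝ) + 1 + Gzz z + Gww z - 2 * Gzw z) - yy z 0 * yy z 0) := by
    rw [Matrix.add_apply, Matrix.mul_apply,
      entry_aux (-(1 / ((n : ℝ) + 1))) (fun i => yy z i * yy z i) _
        (fun k => by simp [Wmat, Umat]; ring), sum_yy]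
    simp
  rw [e00, e01, e02, e10, e11, e12, e20, e21, e22]
  unfold yy
  field_simp
  ring

end Vale.Agent.P254
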