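import Vale.Agent.P254.Main

namespace Vale.Agent.P254

open MeasureTheory

variable {n : ℕ}

theorem exists_simplex_plus_point (p : Fin (n + 2) → (Fin n → ℝ))
    (hp : (interior (convexHull ℝ (Set.range p))).Nonempty) :
    ∃ (q : Fin (n + 1) → (Fin n → ℝ)) (z' : Fin n → ℝ), AffineIndependent ℝ q ∧
      Set.range p = insert z' (Set.range q) := by
  have hspan : affineSpan ℝ (Set.range p) = ⊤ :=
    interior_convexHull_nonempty_iff_affineSpan_eq_top.1 hp
  obtain ⟨t, ht_sub, ht_span, ht_ind⟩ := exists_affineIndependent ℝ (Fin n → ℝ) (Set.range p)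
  have htfin : t.Finite := (Set.finite_range p).subset ht_sub
  have : Fintype t := htfin.fintype
  have hcard : Fintype.card t = n + 1 := by
    have h := ht_ind.affineSpan_eq_top_iff_card_eq_finrank_add_one
    rw [Subtype.range_coe, ht_span, hspan] at h
    simpa using h.1 rfl
  let e : Fin (n + 1) ≃ t := (Fintype.equivFinOfCardEq hcard).symm
  have hq : AffineIndependent ℝ (fun i => (e i : Fin n → ℝ)) :=
    ht_ind.comp_embedding e.toEmbedding
  have hrange : Set.range (fun i => (e i : Fin n → ℝ)) = t := by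
    have : (fun i => (e i : Fin n → ℝ)) = Subtype.val ∘ e := rfl
    rw [this, e.surjective.range_comp, Subtype.range_coe]
  have hnt : t.ncard = n + 1 := by
    rw [Set.ncard_eq_toFinset_card' t, Set.toFinset_card, hcard]
  have hnp : (Set.range p).ncard ≤ n + 2 := by
    rw [← Set.image_univ]
    refine (Set.ncard_image_le Set.finite_univ).trans ?_
    simp
  have hdiff : (Set.range p \ t).ncard ≤ 1 := by
    have := Set.ncard_sdiff_add_ncard_of_subset ht_sub (Set.finite_range p)
    omega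
  rcases (Set.ncard_le_one_iff_eq ((Set.finite_range p).subset Set.sdiff_subset)).1 hdiff with h | ⟨a, h⟩
  · refine ⟨fun i => (e i : Fin n → ℝ), (e 0 : Fin n → ℝ), hq, ?_⟩
    rw [hrange, Set.insert_eq_of_mem (e 0).2]
    exact Set.Subset.antisymm (Set.sdiff_eq_empty.1 h) ht_sub
  · refine ⟨fun i => (e i : Fin n → ℝ), a, hq, ?_⟩
    rw [hrange, ← Set.singleton_union, ← h, Set.sdiff_union_of_subset ht_sub]

theorem rpow_aux {n : ℕ} (hn : 1 ≤ n) {x y : ℝ} (hx : 0 ≤ x) (hy : 0 ≤ y) :
    (x ^ (1 / (2 * (n : ℝ))) ≤ y ^ (1 / (2 * (n : ℝ))) ↔ x ≤ y) ∧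
    (x ^ (1 / (2 * (n : ℝ))) = y ^ (1 / (2 * (n : ℝ))) ↔ x = y) := by
  have hpos : 0 < 1 / (2 * (n : ℝ)) := by
    have : (0 : ℝ) < n := by exact_mod_cast hn
    positivity
  exact ⟨Real.rpow_le_rpow_iff hx hy hpos, Real.rpow_left_inj hx hy hpos.ne'⟩

/-- strong isotropic constant inequality, with equality case, for hulls of `n+2` points -/
theorem few_vertices (n : ℕ) (hn : 1 ≤ n) (p : Fin (n + 2) → (Fin n → ℝ))
    (hp : (interior (convexHull ℝ (Set.range p))).Nonempty)
    (S : Set (Fin n → ℝ)) (hS : IsSimplex S) :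
    isoConst (convexHull ℝ (Set.range p)) ≤ isoConst S ∧
      (isoConst (convexHull ℝ (Set.range p)) = isoConst S ↔
        IsSimplex (convexHull ℝ (Set.range p))) := by
  obtain ⟨m, rfl⟩ : ∃ m, n = m + 1 := ⟨n - 1, by omega⟩
  obtain ⟨q, z', hq, hrange⟩ := exists_simplex_plus_point p hp
  obtain ⟨r, hr0, hr1, hF, hsimp⟩ := core m q hq z'
  rw [hrange]
  have hk := kappa_pos (m + 1)
  have hFS := isoF_simplex m hS
  have hx : 0 ≤ isoF (convexHull ℝ (insert z' (Set.range q))) := by
    rw [hF]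
    positivity
  have hy : 0 ≤ isoF S := by
    rw [hFS]
    exact hk.le
  rw [isoConst_eq, isoConst_eq, (rpow_aux hn hx hy).1, (rpow_aux hn hx hy).2]
  refine ⟨?_, ?_, ?_⟩
  · rw [hF, hFS]
    nlinarith
  · intro h
    apply hsimp
    rw [hF, hFS] at h
    have : kappa (m + 1) * (r - 1) = 0 := by linarith
    rcases mul_eq_zero.1 this with h2 | h2
    · exact absurd h2 hk.ne'
    · linarith
  · intro h
    rw [isoF_simplex m h, hFS]

end Vale.Agent.P254
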