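import Vale.Agent.P254.Simplex

namespace Vale.Agent.P254

open MeasureTheory

variable {n : ℕ}

theorem isoConst_eq (K : Set (Fin n → ℝ)) : isoConst K = (isoF K) ^ (1 / (2 * (n : ℝ))) := rfl

theorem phi_surjective {q : Fin (n + 1) → (Fin n → ℝ)} (hq : (linPart q).det ≠ 0) :
    Function.Surjective (phi q) := by
  intro y
  refine ⟨(linPart q)⁻¹.mulVec (y - q 0), ?_⟩
  rw [phi_eq_aff]
  unfold aff
  rw [Matrix.mulVec_mulVec, Matrix.mul_nonsing_inv _ (isUnit_iff_ne_zero.2 hq), Matrix.one_mulVec]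
  simp

theorem isoF_stdT (m : ℕ) : isoF (stdT (m + 1)) = kappa (m + 1) := by
  have hz : (vtx 0 : Fin (m + 1) → ℝ) ∈ stdT (m + 1) := vtx_mem_stdT 0
  have h := isoF_K0 m (vtx 0)
  rw [K0_eq_stdT hz] at h
  rw [h]
  have hr : ratio (vtx 0 : Fin (m + 1) → ℝ) = 1 := by
    rw [ratio_eq_one_iff]
    right
    have hneg : ∀ i, neg (vtx 0 : Fin (m + 1) → ℝ) i = 0 := by
      intro i
      unfold neg
      exact max_eq_right (by have := hz i; linarith)
    rw [Zs_of_mem hz]
    unfold bS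
    simp [hneg]
  rw [hr, mul_one]

theorem isoF_simplex (m : ℕ) {S : Set (Fin (m + 1) → ℝ)} (hS : IsSimplex S) :
    isoF S = kappa (m + 1) := by
  obtain ⟨q, hq, rfl⟩ := hS
  have hd := det_ne_zero_of_affineIndependent hq
  rw [← phi_image_stdT, phi_eq_aff, isoF_aff_image hd _ stdT_isCompact vol_stdT_pos.ne', isoF_stdT]

theorem vol_K0_ne_zero (m : ℕ) (z : Fin (m + 1) → ℝ) : vol (K0 z) ≠ 0 := by
  rw [vol_K0]
  exact mul_ne_zero (lt_of_lt_of_le one_pos (Zs_ge_one z)).ne' vol_stdT_pos.ne'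

theorem phi_image_K0 (q : Fin (n + 1) → (Fin n → ℝ)) (z : Fin n → ℝ) :
    phi q '' K0 z = convexHull ℝ (insert (phi q z) (Set.range q)) := by
  unfold K0
  rw [phi_image_convexHull, Set.image_insert_eq, phi_image_range_vtx]

theorem isSimplex_phi_image {q : Fin (n + 1) → (Fin n → ℝ)} (hq : (linPart q).det ≠ 0)
    {K : Set (Fin n → ℝ)} (hK : IsSimplex K) : IsSimplex (phi q '' K) := by
  obtain ⟨v, hv, rfl⟩ := hK
  refine ⟨phi q ∘ v, ?_, ?_⟩
  · have h := hv.map' (affA (linPart q) (q 0)) (by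
      rw [coe_affA]
      exact aff_injective hq _)
    rw [coe_affA, ← phi_eq_aff] at h
    exact h
  · rw [phi_image_convexHull, ← Set.range_comp]

/-- core statement: a simplex plus one more point -/
theorem core (m : ℕ) (q : Fin (m + 2) → (Fin (m + 1) → ℝ)) (hq : AffineIndependent ℝ q)
    (z' : Fin (m + 1) → ℝ) :
    ∃ r : ℝ, 0 ≤ r ∧ r ≤ 1 ∧
      isoF (convexHull ℝ (insert z' (Set.range q))) = kappa (m + 1) * r ∧
      (r = 1 → IsSimplex (convexHull ℝ (insert z' (Set.range q)))) := by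
  have hd := det_ne_zero_of_affineIndependent hq
  obtain ⟨z, rfl⟩ := phi_surjective hd z'
  refine ⟨ratio z, ratio_nonneg z, ratio_le_one z, ?_, ?_⟩
  · rw [← phi_image_K0, phi_eq_aff, isoF_aff_image hd _ (K0_isCompact z) (vol_K0_ne_zero m z),
      isoF_K0]
  · intro h
    rw [← phi_image_K0]
    exact isSimplex_phi_image hd (isSimplex_K0_of_ratio z h)

end Vale.Agent.P254
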