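import Vale.Agent.P254.Decomp

namespace Vale.Agent.P254

open MeasureTheory

variable {n : ℕ}

theorem abs_det_perm (σ : Equiv.Perm (Fin (n + 1))) :
    |(linPart (vtx ∘ σ : Fin (n + 1) → (Fin n → ℝ))).det| = 1 := by
  have h1 := vol_phi_image (vtx ∘ σ : Fin (n + 1) → (Fin n → ℝ))
  rw [phi_image_stdT, σ.surjective.range_comp, ← stdT_eq_convexHull] at h1
  have h2 := (vol_stdT_pos (n := n)).ne'
  field_simp at h1
  exact h1.symm

theorem mm_perm (σ : Equiv.Perm (Fin (n + 1))) (a c : Fin (n + 1)) :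
    mm n (σ a) (σ c) = mm n a c := by
  have hd := abs_det_perm σ
  have hne : (linPart (vtx ∘ σ : Fin (n + 1) → (Fin n → ℝ))).det ≠ 0 := by
    intro h
    rw [h] at hd
    simp at hd
  have h1 := integral_phi_image hne (σ a) (σ c)
  rw [phi_image_stdT, σ.surjective.range_comp, ← stdT_eq_convexHull, hd, one_mul] at h1
  unfold mm at h1 ⊢
  rw [h1]
  simp only [Function.comp_apply, bary_vtx, σ.injective.eq_iff]
  simp [Finset.sum_ite_eq]

theorem mm_diag (a : Fin (n + 1)) : mm n a a = mm n 0 0 := by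
  have := mm_perm (Equiv.swap 0 a) 0 0
  simpa using this

theorem mm_offdiag {m : ℕ} {a c : Fin (m + 2)} (hac : a ≠ c) : mm (m + 1) a c = mm (m + 1) 0 1 := by
  set σ1 : Equiv.Perm (Fin (m + 2)) := Equiv.swap 0 a with hσ1
  set c' := σ1 c with hc'
  have hc0 : c' ≠ 0 := by
    intro h
    have : σ1 c = σ1 a := by
      rw [← hc', h, hσ1]
      simp
    exact hac (σ1.injective this).symm
  set σ2 : Equiv.Perm (Fin (m + 2)) := Equiv.swap 1 c' with hσ2
  have h0 : (σ1 * σ2) 0 = a := by
    have : σ2 0 = 0 := by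
      rw [hσ2]
      exact Equiv.swap_apply_of_ne_of_ne (by simp) hc0.symm
    simp [Equiv.Perm.mul_apply, this, hσ1]
  have h1 : (σ1 * σ2) 1 = c := by
    have : σ2 1 = c' := by
      rw [hσ2]
      simp
    rw [Equiv.Perm.mul_apply, this, hc', hσ1]
    simp
  have := mm_perm (σ1 * σ2) 0 1
  rw [h0, h1] at this
  exact this

theorem mm_sum : ∑ a, ∑ c, mm n a c = vol (stdT n) := by
  unfold mm
  have h1 : ∀ a, ∑ c, ∫ x in stdT n, bary x a * bary x c = ∫ x in stdT n, bary x a := by
    intro a
    rw [← integral_finsetSum]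
    · simp_rw [← Finset.mul_sum, bary_sum, mul_one]
    · intro c _
      exact intOn stdT_isCompact ((bary_continuous a).mul (bary_continuous c))
  simp_rw [h1]
  rw [← integral_finsetSum]
  · simp_rw [bary_sum]
    rw [integral_one_eq_vol, mul_one]
  · intro a _
    exact intOn stdT_isCompact (bary_continuous a)

theorem sum_upd (z : Fin n → ℝ) (i : Fin (n + 1)) (g : (Fin n → ℝ) → ℝ) :
    ∑ j, g (upd z i j) = ∑ j, g (vtx j) - g (vtx i) + g z := by
  have h : (fun j => g (upd z i j)) = Function.update (fun j => g (vtx j)) i (g z) := by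
    funext j
    unfold upd
    by_cases hj : j = i
    · subst hj
      simp
    · simp [Function.update_of_ne hj]
  rw [h, Finset.sum_update_of_mem (Finset.mem_univ i), Finset.sdiff_singleton_eq_erase]
  have := Finset.add_sum_erase Finset.univ (fun j => g (vtx j)) (Finset.mem_univ i)
  linarith

theorem quad_form {α β : ℝ} (hm : ∀ j k, mm n j k = β + (α - β) * (if j = k then 1 else 0))
    (g h : Fin (n + 1) → ℝ) :
    ∑ j, ∑ k, g j * h k * mm n j k = β * ((∑ j, g j) * (∑ k, h k)) + (α - β) * ∑ j, g j * h j := by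
  simp_rw [hm, mul_add, Finset.sum_add_distrib]
  congr 1
  · rw [Finset.sum_mul_sum, Finset.mul_sum]
    refine Finset.sum_congr rfl (fun j _ => ?_)
    rw [Finset.mul_sum]
    exact Finset.sum_congr rfl (fun k _ => by ring)
  · rw [Finset.mul_sum]
    refine Finset.sum_congr rfl (fun j _ => ?_)
    simp [Finset.sum_ite_eq]
    ring


/-- positive parts of the barycentric coordinates -/
noncomputable def pos (z : Fin n → ℝ) (i : Fin (n + 1)) : ℝ := max (bary z i) 0

/-- sum of the positive barycentric coordinates -/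
noncomputable def Zs (z : Fin n → ℝ) : ℝ := ∑ i, pos z i

theorem sum_bary_vtx (a : Fin (n + 1)) : ∑ j, bary (vtx j : Fin n → ℝ) a = 1 := by
  simp [bary_vtx]

theorem sum_bary_vtx_mul (a c : Fin (n + 1)) :
    ∑ j, bary (vtx j : Fin n → ℝ) a * bary (vtx j : Fin n → ℝ) c = if a = c then 1 else 0 := by
  simp [bary_vtx]

theorem integral_K0_closed {α β : ℝ}
    (hm : ∀ j k, mm n j k = β + (α - β) * (if j = k then 1 else 0))
    (z : Fin n → ℝ) (a c : Fin (n + 1)) :
    ∫ y in K0 z, bary y a * bary y c =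
      β * (Zs z * ((1 + bary z a) * (1 + bary z c)) - (1 + bary z c) * pos z a
          - (1 + bary z a) * pos z c + (if a = c then pos z a else 0))
      + (α - β) * (Zs z * ((if a = c then 1 else 0) + bary z a * bary z c)
          - (if a = c then pos z a else 0)) := by
  rw [integral_K0_bary]
  have hterm : ∀ i, max (bary z i) 0 *
      ∑ j, ∑ k, bary (upd z i j) a * bary (upd z i k) c * mm n j k =
      (β * ((1 + bary z a) * (1 + bary z c)) + (α - β) * ((if a = c then 1 else 0) + bary z a * bary z c)) * pos z i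
      - β * (1 + bary z c) * (pos z i * (if a = i then 1 else 0))
      - β * (1 + bary z a) * (pos z i * (if c = i then 1 else 0))
      + (β - (α - β)) * (pos z i * ((if a = i then 1 else 0) * (if c = i then 1 else 0))) := by
    intro i
    rw [quad_form hm (fun j => bary (upd z i j) a) (fun k => bary (upd z i k) c),
      sum_upd z i (fun y => bary y a), sum_upd z i (fun y => bary y c),
      sum_upd z i (fun y => bary y a * bary y c), sum_bary_vtx, sum_bary_vtx, sum_bary_vtx_mul,
      bary_vtx, bary_vtx]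
    unfold pos
    ring
  simp_rw [hterm]
  rw [Finset.sum_add_distrib, Finset.sum_sub_distrib, Finset.sum_sub_distrib,
    ← Finset.mul_sum, ← Finset.mul_sum, ← Finset.mul_sum, ← Finset.mul_sum]
  have hS1 : ∀ e : Fin (n + 1), ∑ i, pos z i * (if e = i then 1 else 0) = pos z e := by
    intro e
    simp
  have hS2 : ∑ i, pos z i * ((if a = i then (1:ℝ) else 0) * (if c = i then 1 else 0))
      = if a = c then pos z a else 0 := by
    by_cases hac : a = c
    · subst hac
      simp
    · rw [if_neg hac]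
      apply Finset.sum_eq_zero
      intro i _
      by_cases h1 : a = i
      · subst h1
        simp [Ne.symm hac]
      · simp [h1]
  rw [hS1, hS1, hS2]
  unfold Zs
  ring


theorem K0_eq_stdT {z : Fin n → ℝ} (hz : z ∈ stdT n) : K0 z = stdT n := by
  apply Set.Subset.antisymm _ (stdT_subset_K0 z)
  unfold K0
  apply convexHull_min
  · intro y hy
    rcases hy with rfl | ⟨j, rfl⟩
    · exact hz
    · exact vtx_mem_stdT j
  · rw [stdT_eq_convexHull]
    exact convex_convexHull ℝ _

theorem pos_of_mem {z : Fin n → ℝ} (hz : z ∈ stdT n) (i : Fin (n + 1)) : pos z i = bary z i :=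
  max_eq_left (hz i)

theorem Zs_of_mem {z : Fin n → ℝ} (hz : z ∈ stdT n) : Zs z = 1 := by
  unfold Zs
  simp_rw [pos_of_mem hz]
  exact bary_sum z

theorem bary_center (i : Fin (n + 1)) :
    bary (fun _ : Fin n => 1 / ((n : ℝ) + 1)) i = 1 / ((n : ℝ) + 1) := by
  have hn : (0 : ℝ) < (n : ℝ) + 1 := by positivity
  refine Fin.cases ?_ (fun k => ?_) i
  · rw [bary_zero]
    simp only [Finset.sum_const, Finset.card_univ, Fintype.card_fin, nsmul_eq_mul]
    field_simp
    ring
  · rw [bary_succ]

theorem mm_form (m : ℕ) (j k : Fin (m + 2)) :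
    mm (m + 1) j k = mm (m + 1) 0 1 + (mm (m + 1) 0 0 - mm (m + 1) 0 1) * (if j = k then 1 else 0) := by
  by_cases h : j = k
  · subst h
    rw [mm_diag]
    simp
  · rw [mm_offdiag h]
    simp [h]

theorem mm_alpha_beta (m : ℕ) : mm (m + 1) 0 0 = 2 * mm (m + 1) 0 1 := by
  set z : Fin (m + 1) → ℝ := fun _ => 1 / (((m + 1 : ℕ) : ℝ) + 1) with hz
  have hb : ∀ i, bary z i = 1 / (((m + 1 : ℕ) : ℝ) + 1) := bary_center
  have hzT : z ∈ stdT (m + 1) := by
    intro i
    rw [hb]
    positivity
  have h := integral_K0_closed (mm_form m) z 0 0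
  rw [K0_eq_stdT hzT, Zs_of_mem hzT, pos_of_mem hzT, hb] at h
  have h0 : ∫ y in stdT (m + 1), bary y 0 * bary y 0 = mm (m + 1) 0 0 := rfl
  rw [h0] at h
  simp only [if_true] at h
  set t : ℝ := 1 / (((m + 1 : ℕ) : ℝ) + 1) with ht
  have ht0 : 0 < t := by positivity
  have ht1 : t < 1 := by
    rw [ht, div_lt_one (by positivity)]
    push_cast
    have : (0 : ℝ) ≤ m := Nat.cast_nonneg m
    linarith
  have key : (mm (m + 1) 0 0 - 2 * mm (m + 1) 0 1) * (t * (1 - t)) = 0 := by
    linear_combination h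
  have hne : t * (1 - t) ≠ 0 := (mul_pos ht0 (by linarith)).ne'
  have := (mul_eq_zero.1 key).resolve_right hne
  linarith

theorem mm_beta (m : ℕ) :
    mm (m + 1) 0 1 = vol (stdT (m + 1)) / ((((m + 1 : ℕ) : ℝ) + 1) * (((m + 1 : ℕ) : ℝ) + 2)) := by
  have h0 := mm_sum (n := m + 1)
  have h : ∑ a : Fin (m + 2), ∑ c : Fin (m + 2), (mm (m + 1) 0 1 +
      (mm (m + 1) 0 0 - mm (m + 1) 0 1) * (if a = c then 1 else 0)) = vol (stdT (m + 1)) := by
    rw [← h0]
    exact Finset.sum_congr rfl (fun a _ => Finset.sum_congr rfl (fun c _ => (mm_form m a c).symm))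
  rw [mm_alpha_beta] at h
  simp only [Finset.sum_add_distrib, Finset.sum_const, Finset.card_univ, Fintype.card_fin,
    nsmul_eq_mul, ← Finset.mul_sum, Finset.sum_ite_eq, Finset.mem_univ, if_true] at h
  rw [eq_div_iff (by positivity)]
  rw [← h]
  push_cast
  ring

/-- second moments of barycentric coordinates on the polytope `K0 z` -/
theorem integral_K0_final (m : ℕ) (z : Fin (m + 1) → ℝ) (a c : Fin (m + 2)) :
    ∫ y in K0 z, bary y a * bary y c =
      vol (stdT (m + 1)) / ((((m + 1 : ℕ) : ℝ) + 1) * (((m + 1 : ℕ) : ℝ) + 2)) *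
        (Zs z * ((1 + bary z a) * (1 + bary z c) + (if a = c then 1 else 0) + bary z a * bary z c)
          - (1 + bary z c) * pos z a - (1 + bary z a) * pos z c) := by
  rw [integral_K0_closed (mm_form m), mm_alpha_beta, ← mm_beta]
  ring

end Vale.Agent.P254
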