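import Vale.Agent.P254.Det

namespace Vale.Agent.P254

open MeasureTheory

variable {n : ℕ}

theorem covMatrix_K0_eq (m : ℕ) (z : Fin (m + 1) → ℝ) :
    covMatrix (K0 z) = (1 / ((((m + 1 : ℕ) : ℝ) + 1) * (((m + 1 : ℕ) : ℝ) + 2))) •
      (1 + Umat z * Wmat ((m + 1 : ℕ) : ℝ) z) := by
  ext k l
  rw [cov_K0, Matrix.smul_apply, Matrix.add_apply, Matrix.mul_apply, Fin.sum_univ_three,
    Matrix.one_apply]
  simp only [Umat, Wmat, Matrix.of_apply, Matrix.cons_val_zero, Matrix.cons_val_one,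
    Matrix.cons_val_two, Matrix.head_cons, Matrix.tail_cons, smul_eq_mul]
  simp
  left
  ring

/-- the ratio `(L_K / L_Δ)^(2n)` for `K = K0 z` -/
noncomputable def ratio (z : Fin n → ℝ) : ℝ :=
  ((1 + Gzz z) * (1 - Gww z) + Gzw z ^ 2) / (Zs z) ^ 2

/-- the constant `det Σ / vol^2` of the simplex -/
noncomputable def kappa (n : ℕ) : ℝ :=
  (1 / (((n : ℝ) + 1) * ((n : ℝ) + 2))) ^ n / (((n : ℝ) + 1) * (vol (stdT n)) ^ 2)

theorem isoF_K0 (m : ℕ) (z : Fin (m + 1) → ℝ) : isoF (K0 z) = kappa (m + 1) * ratio z := by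
  have hZ : Zs z ≠ 0 := (lt_of_lt_of_le one_pos (Zs_ge_one z)).ne'
  have hV : vol (stdT (m + 1)) ≠ 0 := vol_stdT_pos.ne'
  have h1 : (((m + 1 : ℕ) : ℝ) + 1) ≠ 0 := by positivity
  unfold isoF kappa ratio
  rw [covMatrix_K0_eq, Matrix.det_smul, det_one_add_UW, vol_K0, Fintype.card_fin]
  field_simp

theorem kappa_pos (n : ℕ) : 0 < kappa n := by
  unfold kappa
  have := vol_stdT_pos (n := n)
  positivity


/-- negative parts of the barycentric coordinates -/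
noncomputable def neg (z : Fin n → ℝ) (i : Fin (n + 1)) : ℝ := max (- bary z i) 0

noncomputable def aS (z : Fin n → ℝ) : ℝ := ∑ i, pos z i ^ 2
noncomputable def bS (z : Fin n → ℝ) : ℝ := ∑ i, neg z i ^ 2
noncomputable def Ns (z : Fin n → ℝ) : ℝ := ∑ i, neg z i

theorem pos_nonneg (z : Fin n → ℝ) (i : Fin (n + 1)) : 0 ≤ pos z i := le_max_right _ _
theorem neg_nonneg (z : Fin n → ℝ) (i : Fin (n + 1)) : 0 ≤ neg z i := le_max_right _ _

theorem bary_eq_pos_sub_neg (z : Fin n → ℝ) (i : Fin (n + 1)) : bary z i = pos z i - neg z i := by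
  unfold pos neg
  rcases le_total 0 (bary z i) with h | h
  · rw [max_eq_left h, max_eq_right (by linarith)]
    ring
  · rw [max_eq_right h, max_eq_left (by linarith)]
    ring

theorem pos_mul_neg (z : Fin n → ℝ) (i : Fin (n + 1)) : pos z i * neg z i = 0 := by
  unfold pos neg
  rcases le_total 0 (bary z i) with h | h
  · rw [max_eq_right (a := - bary z i) (by linarith)]
    ring
  · rw [max_eq_right h]
    ring

theorem Zs_eq (z : Fin n → ℝ) : Zs z = 1 + Ns z := by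
  have h := bary_sum z
  simp_rw [bary_eq_pos_sub_neg, Finset.sum_sub_distrib] at h
  unfold Zs Ns
  linarith

theorem Gzz_eq (z : Fin n → ℝ) : Gzz z = aS z + bS z := by
  unfold Gzz aS bS
  rw [← Finset.sum_add_distrib]
  refine Finset.sum_congr rfl (fun i _ => ?_)
  rw [bary_eq_pos_sub_neg]
  have := pos_mul_neg z i
  nlinarith

theorem Gzw_eq (z : Fin n → ℝ) : Gzw z = aS z / Zs z := by
  unfold Gzw aS ww
  rw [Finset.sum_div]
  refine Finset.sum_congr rfl (fun i _ => ?_)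
  rw [bary_eq_pos_sub_neg]
  have := pos_mul_neg z i
  have e : (pos z i - neg z i) * pos z i = pos z i ^ 2 := by nlinarith
  rw [← mul_div_assoc, e]

theorem Gww_eq (z : Fin n → ℝ) : Gww z = aS z / Zs z ^ 2 := by
  unfold Gww aS ww
  rw [Finset.sum_div]
  refine Finset.sum_congr rfl (fun i _ => ?_)
  rw [div_mul_div_comm]
  ring

theorem ratio_eq (z : Fin n → ℝ) :
    ratio z = 1 - (1 - aS z / Zs z ^ 2) * (1 - (1 + bS z) / Zs z ^ 2) := by
  have hZ : Zs z ≠ 0 := (lt_of_lt_of_le one_pos (Zs_ge_one z)).ne'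
  unfold ratio
  rw [Gzz_eq, Gzw_eq, Gww_eq]
  field_simp
  ring

theorem sum_sq_le_sq_sum {ι : Type*} (s : Finset ι) (f : ι → ℝ) (hf : ∀ i ∈ s, 0 ≤ f i) :
    ∑ i ∈ s, f i ^ 2 ≤ (∑ i ∈ s, f i) ^ 2 := by
  rw [sq (∑ i ∈ s, f i), Finset.sum_mul]
  refine Finset.sum_le_sum (fun i hi => ?_)
  rw [sq]
  exact mul_le_mul_of_nonneg_left (Finset.single_le_sum hf hi) (hf i hi)

theorem aS_le (z : Fin n → ℝ) : aS z ≤ Zs z ^ 2 :=
  sum_sq_le_sq_sum _ _ (fun i _ => pos_nonneg z i)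

theorem bS_le (z : Fin n → ℝ) : bS z ≤ Ns z ^ 2 :=
  sum_sq_le_sq_sum _ _ (fun i _ => neg_nonneg z i)

theorem Ns_nonneg (z : Fin n → ℝ) : 0 ≤ Ns z := Finset.sum_nonneg (fun i _ => neg_nonneg z i)

theorem one_add_bS_le (z : Fin n → ℝ) : 1 + bS z ≤ Zs z ^ 2 := by
  rw [Zs_eq]
  have := bS_le z
  have := Ns_nonneg z
  nlinarith

theorem aS_nonneg (z : Fin n → ℝ) : 0 ≤ aS z := Finset.sum_nonneg (fun _ _ => sq_nonneg _)
theorem bS_nonneg (z : Fin n → ℝ) : 0 ≤ bS z := Finset.sum_nonneg (fun _ _ => sq_nonneg _)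

theorem ratio_le_one (z : Fin n → ℝ) : ratio z ≤ 1 := by
  have hZ : 0 < Zs z ^ 2 := by
    have := Zs_ge_one z
    positivity
  rw [ratio_eq]
  have h1 : 0 ≤ 1 - aS z / Zs z ^ 2 := by
    rw [sub_nonneg, div_le_one hZ]
    exact aS_le z
  have h2 : 0 ≤ 1 - (1 + bS z) / Zs z ^ 2 := by
    rw [sub_nonneg, div_le_one hZ]
    exact one_add_bS_le z
  nlinarith [mul_nonneg h1 h2]

theorem ratio_nonneg (z : Fin n → ℝ) : 0 ≤ ratio z := by
  have hZ : 0 < Zs z ^ 2 := by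
    have := Zs_ge_one z
    positivity
  rw [ratio_eq]
  have h1 : 0 ≤ 1 - aS z / Zs z ^ 2 := by
    rw [sub_nonneg, div_le_one hZ]
    exact aS_le z
  have h1' : 1 - aS z / Zs z ^ 2 ≤ 1 := by
    have := div_nonneg (aS_nonneg z) hZ.le
    linarith
  have h2 : 0 ≤ 1 - (1 + bS z) / Zs z ^ 2 := by
    rw [sub_nonneg, div_le_one hZ]
    exact one_add_bS_le z
  have h2' : 1 - (1 + bS z) / Zs z ^ 2 ≤ 1 := by
    have := div_nonneg (add_nonneg zero_le_one (bS_nonneg z)) hZ.le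
    linarith
  nlinarith [mul_le_mul h1' h2' h2 zero_le_one]

theorem ratio_eq_one_iff (z : Fin n → ℝ) :
    ratio z = 1 ↔ (aS z = Zs z ^ 2 ∨ 1 + bS z = Zs z ^ 2) := by
  have hZ : Zs z ^ 2 ≠ 0 := by
    have := Zs_ge_one z
    positivity
  rw [ratio_eq]
  constructor
  · intro h
    have h0 : (1 - aS z / Zs z ^ 2) * (1 - (1 + bS z) / Zs z ^ 2) = 0 := by linarith
    rcases mul_eq_zero.1 h0 with h1 | h1
    · left
      have h2 : aS z / Zs z ^ 2 = 1 := by linarith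
      rwa [div_eq_one_iff_eq hZ] at h2
    · right
      have h2 : (1 + bS z) / Zs z ^ 2 = 1 := by linarith
      rwa [div_eq_one_iff_eq hZ] at h2
  · rintro (h | h)
    · rw [h, div_self hZ]
      ring
    · rw [h, div_self hZ]
      ring

end Vale.Agent.P254
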