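import Vale.Agent.P254.Ratio

namespace Vale.Agent.P254

open MeasureTheory

variable {n : ℕ}

theorem phi_injective {q : Fin (n + 1) → (Fin n → ℝ)} (hq : (linPart q).det ≠ 0) :
    Function.Injective (phi q) := by
  rw [phi_eq_aff]
  exact aff_injective hq _

theorem affineIndependent_of_det {q : Fin (n + 1) → (Fin n → ℝ)} (hq : (linPart q).det ≠ 0) :
    AffineIndependent ℝ q := by
  rw [affineIndependent_iff]
  intro s w hw0 hw1 e he
  set w' : Fin (n + 1) → ℝ := fun i => if i ∈ s then w i else 0 with hw'
  have h0 : ∑ i, w' i = 0 := by
    rw [hw']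
    simp only [Finset.sum_ite_mem, Finset.univ_inter]
    exact hw0
  have h1 : ∑ i, w' i • q i = 0 := by
    rw [hw']
    simp only [ite_smul, zero_smul, Finset.sum_ite_mem, Finset.univ_inter]
    exact hw1
  set u : Fin (n + 1) → ℝ := fun i => (if i = 0 then 1 else 0) + w' i with hu
  have hu1 : ∑ i, u i = 1 := by
    rw [hu]
    simp [Finset.sum_add_distrib, h0]
  set x : Fin n → ℝ := ∑ i, u i • vtx i with hx
  have hbx : ∀ j, bary x j = u j := by
    intro j
    rw [hx, bary_comb _ _ _ hu1]
    simp [bary_vtx]
  have hphi : phi q x = q 0 := by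
    unfold phi
    simp_rw [hbx, hu, add_smul, Finset.sum_add_distrib, h1]
    simp
  have hxe : x = vtx 0 := by
    apply phi_injective hq
    rw [hphi, phi_vtx]
  have := hbx e
  rw [hxe, bary_vtx, hu] at this
  simp only [hw', if_pos he] at this
  linarith

theorem det_ne_zero_of_affineIndependent {q : Fin (n + 1) → (Fin n → ℝ)}
    (hq : AffineIndependent ℝ q) : (linPart q).det ≠ 0 := by
  have hspan : affineSpan ℝ (Set.range q) = ⊤ := by
    rw [hq.affineSpan_eq_top_iff_card_eq_finrank_add_one]
    simp
  have hint := interior_convexHull_nonempty_iff_affineSpan_eq_top.2 hspan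
  have hpos : 0 < vol (convexHull ℝ (Set.range q)) :=
    vol_pos_of_compact_of_open ((Set.finite_range q).isCompact_convexHull (𝕜 := ℝ))
      isOpen_interior hint interior_subset
  rw [← phi_image_stdT, vol_phi_image] at hpos
  intro h
  rw [h] at hpos
  simp at hpos

theorem isSimplex_stdT : IsSimplex (stdT n) := by
  refine ⟨vtx, affineIndependent_of_det ?_, stdT_eq_convexHull⟩
  have h := det_linPart_upd (vtx 0 : Fin n → ℝ) 0
  have e : upd (vtx 0 : Fin n → ℝ) 0 = vtx := by
    unfold upd
    exact Function.update_eq_self 0 vtx
  rw [e, bary_vtx] at h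
  rw [h]
  simp

theorem isSimplex_piece (z : Fin n → ℝ) (i : Fin (n + 1)) (hi : bary z i ≠ 0) :
    IsSimplex (piece z i) := by
  refine ⟨upd z i, affineIndependent_of_det ?_, ?_⟩
  · rw [det_linPart_upd]
    exact hi
  · unfold piece
    exact phi_image_stdT _

theorem isSimplex_K0_of_ratio (z : Fin n → ℝ) (h : ratio z = 1) : IsSimplex (K0 z) := by
  rcases (ratio_eq_one_iff z).1 h with h1 | h1
  · -- only one positive coordinate
    have hsum : ∑ i, pos z i * (Zs z - pos z i) = 0 := by
      simp_rw [mul_sub, Finset.sum_sub_distrib, ← Finset.sum_mul]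
      have : ∑ i, pos z i * pos z i = aS z := by
        unfold aS
        exact Finset.sum_congr rfl (fun i _ => by ring)
      rw [this, h1]
      unfold Zs
      ring
    have hle : ∀ i, pos z i ≤ Zs z := fun i =>
      Finset.single_le_sum (fun j _ => pos_nonneg z j) (Finset.mem_univ i)
    have hzero := (Finset.sum_eq_zero_iff_of_nonneg
      (fun i _ => mul_nonneg (pos_nonneg z i) (sub_nonneg.2 (hle i)))).1 hsum
    have hZ : 0 < Zs z := lt_of_lt_of_le one_pos (Zs_ge_one z)
    obtain ⟨i0, _, hi0⟩ : ∃ i ∈ Finset.univ, 0 < pos z i := by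
      by_contra hcon
      push Not at hcon
      have : Zs z ≤ 0 := Finset.sum_nonpos hcon
      linarith
    have hi0Z : pos z i0 = Zs z := by
      have := hzero i0 (Finset.mem_univ i0)
      rcases mul_eq_zero.1 this with h2 | h2
      · linarith
      · linarith
    have hother : ∀ j, j ≠ i0 → pos z j = 0 := by
      intro j hj
      have := hzero j (Finset.mem_univ j)
      rcases mul_eq_zero.1 this with h2 | h2
      · exact h2
      · exfalso
        have hjZ : pos z j = Zs z := by linarith
        have h3 : pos z i0 + pos z j ≤ Zs z := by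
          have := Finset.add_le_sum (fun k _ => pos_nonneg z k) (Finset.mem_univ i0)
            (Finset.mem_univ j) hj.symm
          exact this
        linarith
    have hb0 : 0 < bary z i0 := by
      unfold pos at hi0
      by_contra hcon
      rw [max_eq_right (not_lt.1 hcon)] at hi0
      exact lt_irrefl _ hi0
    have hK : K0 z = piece z i0 := by
      rw [K0_eq_iUnion]
      apply Set.Subset.antisymm
      · apply Set.iUnion_subset
        intro j
        by_cases hj : j = i0
        · subst hj
          rw [if_pos hb0]
        · have : ¬ 0 < bary z j := by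
            intro hpos
            have := hother j hj
            unfold pos at this
            rw [max_eq_left hpos.le] at this
            linarith
          rw [if_neg this]
          exact Set.empty_subset _
      · intro y hy
        rw [Set.mem_iUnion]
        exact ⟨i0, by rw [if_pos hb0]; exact hy⟩
    rw [hK]
    exact isSimplex_piece z i0 hb0.ne'
  · -- no negative coordinate
    have hN : Ns z = 0 := by
      rw [Zs_eq] at h1
      have := bS_le z
      have := Ns_nonneg z
      nlinarith
    have hneg := (Finset.sum_eq_zero_iff_of_nonneg (fun i _ => neg_nonneg z i)).1 hN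
    have hz : z ∈ stdT n := by
      intro i
      rw [bary_eq_pos_sub_neg, hneg i (Finset.mem_univ i), sub_zero]
      exact pos_nonneg z i
    rw [K0_eq_stdT hz]
    exact isSimplex_stdT

end Vale.Agent.P254
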